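import Vale.Agent.P032.S5.H358.NoSpec
import Vale.Agent.P032.H471.Two

/-!
# P032: clean circles of two-pair centres with one end of a type and two of the complementary type

Frame `Irr U T`.  `z` a two-pair centre (pairs `ab | cd`, other colours `e, f`), `|T y| ≤ 3` on `S(z)`,
one point `v` of palette `abe`, at least two points `q, q'` of palette `cdf`.

`w3` : then `S(z)` has exactly one exact `ab`-arc (from `v` to a point `u` of palette `abf`) and exactly
two exact `cd`-arcs (from `q, q'` to points `r ≠ r'` of palette `cde`), and there are no other points of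
palette `abf`, `cde`, `cdf`.
`ef_change` : if `e, f ∈ T y` then the neighbours of `y` on `S(z)` are in the closures of the exact arcs.
-/

open Set Filter Topology Metric

noncomputable section

namespace Vale.Agent.P032.H597

open Vale.Agent.P032.Six Vale.Agent.P032.S5.H767 Vale.Agent.P032.S5.H349 Vale.Agent.P032.S5.H450
open Vale.Agent.P032.S5.H358

variable {U : Fin 6 → Set ℂ} {T : ℂ → Set (Fin 6)} {z v u v' u' q q' y : ℂ}
  {a b c d e f : Fin 6}

/-- a point with both free colours has its neighbours in the closures of the exact arcs -/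
theorem ef_change (C : Ctr U T z a b c d e f) {y y' : ℂ} (hy : dist y z = 1) (hy' : dist y' z = 1)
    (hyy : dist y y' = 1) (h3 : (T y).ncard ≤ 3) (h3' : (T y').ncard ≤ 3) (he : e ∈ T y)
    (hf : f ∈ T y) : y' ∈ closure (Ex T z {a, b}) ∨ y' ∈ closure (Ex T z {c, d}) := by
  by_contra hcon
  push Not at hcon
  have hl0 : y ∈ Lt T z a b c d e f 0 := ⟨hy, he⟩
  have hl1 : y ∈ Lt T z a b c d e f 1 := ⟨hy, hf⟩
  have hall : ∀ m : Fin 4, m = 0 ∨ m = 1 ∨ m = 2 ∨ m = 3 := by decide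
  have h2 : ∀ m, y' ∈ Lt T z a b c d e f m → m = 0 ∨ m = 1 := by
    intro m hm
    rcases hall m with rfl | rfl | rfl | rfl
    · exact Or.inl rfl
    · exact Or.inr rfl
    · exact absurd hm hcon.1
    · exact absurd hm hcon.2
  have hyy' : dist y' y = 1 := by rw [dist_comm]; exact hyy
  by_cases k0 : y' ∈ Lt T z a b c d e f 0
  · by_cases k1 : y' ∈ Lt T z a b c d e f 1
    · exact C.noswap (l := 0) (m := 1) (by decide) hyy h3 h3' hl0 hl1 k0 k1
    · refine C.int (l := 0) hy' (fun m hm => ?_) hy hyy' hl0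
      rcases h2 m hm with rfl | rfl
      · rfl
      · exact absurd hm k1
  · refine C.int (l := 1) hy' (fun m hm => ?_) hy hyy' hl1
    rcases h2 m hm with rfl | rfl
    · exact absurd hm k0
    · rfl

/-! ### arcs -/

/-- `y` is between the two ends `v`, `u` of one exact arc of `S(z)` -/
def Seg (T : ℂ → Set (Fin 6)) (z v u y : ℂ) : Prop :=
  ∃ o l t : ℝ, 0 < t ∧ t < l ∧ l ≤ Real.pi / 3 ∧ OEnd T z v o ∧ OEnd T z u (-o) ∧
    u = z + (v - z) * cis (-(o * l)) ∧ y = z + (v - z) * cis (-(o * t)) ∧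
    ∀ s ∈ Ioo 0 l, T (z + (v - z) * cis (-(o * s))) = T z ∩ T v

theorem Seg.aa (h : Seg T z v u y) : AA T z v u := by
  obtain ⟨o, l, t, ht, htl, hl, h1, h2, h3, -, h4⟩ := h
  exact ⟨o, l, ht.trans htl, hl, h1, h2, h3, h4⟩

theorem Seg.symm (h : Seg T z v u y) : Seg T z u v y := by
  have hp := h.aa.pair'
  obtain ⟨o, l, t, ht, htl, hl, h1, h2, h3, h5, h4⟩ := h
  refine ⟨-o, l, l - t, by linarith, by linarith, hl, h2, by rwa [neg_neg], ?_, ?_,
    fun s hs => ?_⟩
  · rw [h3, add_sub_cancel_left, mul_assoc, ← cis_add394]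
    have : -(o * l) + -(-o * l) = 0 := by ring
    rw [this, cis_zero394, mul_one, add_sub_cancel]
  · rw [h3, add_sub_cancel_left, mul_assoc, ← cis_add394, h5]
    congr 3
    ring
  · rw [hp, ← h4 (l - s) ⟨by linarith [hs.2], by linarith [hs.1]⟩]
    congr 1
    rw [h3, add_sub_cancel_left, mul_assoc, ← cis_add394]
    congr 3
    ring

/-- the arc through a point of an exact `ab`-arc -/
theorem exists_seg (h : Irr U T) (hz : DPt T z a b c d)
    (h3 : ∀ y, dist y z = 1 → (T y).ncard ≤ 3) (hy : y ∈ Ex T z {a, b}) :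
    ∃ v u, Seg T z v u y ∧ T z ∩ T v = {a, b} := by
  have h4 : (T z).ncard = 4 := by
    rw [hz.pal, Set.ncard_eq_toFinset_card']
    have h1 := hz.ab; have h2 := hz.ac; have h5 := hz.ad; have h6 := hz.bc; have h7 := hz.bd
    have h8 := hz.cd
    simp [h1, h2, h5, h6, h7, h8]
  obtain ⟨t0, ht0⟩ := exists_cis (u := y - z) (by rw [← dist_eq_norm]; exact hy.1)
  have hgt : y = z + cis t0 := by rw [← ht0]; ring
  have hA : Arc T z (z + cis t0) {a, b} := by rw [← hgt]; exact hy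
  obtain ⟨η, hη, hJ⟩ := hA.exists_eta
  obtain ⟨p2, hp2⟩ := hz.arc2
  obtain ⟨q2, hq2, hne, hop⟩ := hp2.exists_off_line (y := p2)
  have hPQ : T z = {a, b} ∪ {c, d} := by
    rw [hz.pal]; ext i; simp only [mem_insert_iff, mem_singleton_iff, mem_union]; tauto
  have hcl : ∀ y, y ∈ closure (Ex T z {a, b}) → (T y).ncard ≤ 3 := fun y hy =>
    h3 y (dist_of_closure hy)
  -- the counterclockwise end
  obtain ⟨l₁, g₁, hl₁, hη₁, hl₁', hT₁, hTl₁, hg₁⟩ := exists_arc_end' h (z := z) (P := {a, b})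
    (Q := {c, d}) (θ := t0) (o := -1) (ε := η) (Or.inr rfl) (Set.ncard_pair hz.ab) hPQ hη
    (fun t ht => hJ _ (by
      rw [neg_one_mul, sub_neg_eq_add, add_sub_cancel_left, abs_of_pos ht.1]; exact ht.2))
    hcl (Set.ncard_pair hz.cd) (y₁ := q2) (y₂ := p2) hq2.1 hp2.1 hne hop
    (by rw [hq2.mem]) (by rw [hp2.mem])
  -- from there the other end
  have hreg : ∀ t ∈ Ioo 0 (l₁ + η), T (z + cis (t0 + l₁ - 1 * t)) = {a, b} := by
    intro t ht
    by_cases h5 : t < l₁
    · have h6 := hT₁ (l₁ - t) ⟨by linarith, by linarith [ht.1]⟩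
      rw [← h6]; congr 2; ring_nf
    · push Not at h5
      refine hJ _ ?_
      rw [abs_lt]
      constructor <;> linarith [ht.2]
  obtain ⟨l, g, hl0, hεl, hl, hT, hTl, hg⟩ := exists_arc_end' h (z := z) (P := {a, b})
    (Q := {c, d}) (θ := t0 + l₁) (o := 1) (ε := l₁ + η) (Or.inl rfl) (Set.ncard_pair hz.ab) hPQ
    (by linarith) hreg hcl (Set.ncard_pair hz.cd) (y₁ := q2) (y₂ := p2) hq2.1 hp2.1 hne hop
    (by rw [hq2.mem]) (by rw [hp2.mem])
  set V := z + cis (t0 + l₁) with hV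
  have hTV : T V = insert g₁ {a, b} := by
    rw [← hTl₁, hV]; congr 2; ring_nf
  have key : ∀ s : ℝ, z + (V - z) * cis (-(1 * s)) = z + cis (t0 + l₁ - 1 * s) := by
    intro s
    rw [hV, add_sub_cancel_left, ← cis_add394]
    congr 2
  have hVd : dist V z = 1 := dist_add_cis z _
  have cap : ∀ {w : ℂ} {g : Fin 6}, T w = insert g {a, b} → g ∉ T z →
      T z ∩ T w = {a, b} ∧ (T w).ncard = 3 := by
    intro w g hw hgz
    constructor
    · rw [hw]
      ext i
      simp only [mem_inter_iff, mem_insert_iff, mem_singleton_iff]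
      constructor
      · rintro ⟨h5, rfl | h6⟩
        · exact absurd h5 hgz
        · exact h6
      · intro h5
        refine ⟨?_, Or.inr h5⟩
        rw [hz.pal]
        rcases h5 with rfl | rfl <;> simp
    · rw [hw, Set.ncard_insert_of_notMem _ (Set.toFinite _), Set.ncard_pair hz.ab]
      intro h5
      refine hgz ?_
      rw [hz.pal]
      rcases h5 with h5 | h5
      · rw [h5]; simp
      · rw [mem_singleton_iff.1 h5]; simp
  obtain ⟨cV, nV⟩ := cap hTV hg₁
  set W := z + cis (t0 + l₁ - 1 * l) with hW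
  obtain ⟨cW, nW⟩ := cap (w := W) hTl hg
  have hWd : dist W z = 1 := dist_add_cis z _
  refine ⟨V, W, ⟨1, l, l₁, hl₁, by linarith, hl, ⟨Or.inl rfl, hVd, h4, nV, ?_, l, hl0, ?_⟩,
    ⟨Or.inr rfl, hWd, h4, nW, ?_, l, hl0, ?_⟩, ?_, ?_, ?_⟩, cV⟩
  · rw [cV, Set.ncard_pair hz.ab]
  · intro t ht
    rw [key, cV]; exact hT t ht
  · rw [cW, Set.ncard_pair hz.ab]
  · intro t ht
    rw [cW, ← hT (l - t) ⟨by linarith [ht.2], by linarith [ht.1]⟩]
    congr 1
    rw [hW, add_sub_cancel_left, ← cis_add394]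
    congr 2
    ring
  · rw [key]
  · rw [key, hgt]; congr 2; ring
  · intro s hs
    rw [key, cV]; exact hT s hs

/-- the orientation of a clean end is unique -/
theorem cln_o_eq {o₁ o₂ : ℝ} (hc : Cln T z v) (h1 : OEnd T z v o₁) (h2 : OEnd T z v o₂) :
    o₁ = o₂ := by
  obtain ⟨o, ε, ho, hε, -, hn⟩ := hc
  have key : ∀ {o' : ℝ}, OEnd T z v o' → o' = o := by
    rintro o' ⟨ho', -, -, -, -, ε', hε', ha⟩
    by_contra hne
    have h5 : o' = -o := by
      rcases ho with rfl | rfl <;> rcases ho' with rfl | rfl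
      · exact absurd rfl hne
      · rfl
      · norm_num
      · exact absurd rfl hne
    have hm : 0 < min ε ε' := lt_min hε hε'
    have h6 := ha (min ε ε' / 2) ⟨by linarith, by have := min_le_right ε ε'; linarith⟩
    refine hn (min ε ε' / 2) ⟨by linarith, by have := min_le_left ε ε'; linarith⟩ ?_
    rw [h5, neg_mul, neg_neg] at h6
    rw [h6]
  rw [key h1, key h2]

/-- the arc at a clean end is unique -/
theorem cln_aa_unique (hc : Cln T z v) (h1 : AA T z v u) (h2 : AA T z v u') : u = u' := by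
  obtain ⟨o, l, hl0, hl, hE, hE', e, harc⟩ := h1
  obtain ⟨o', l', hl0', hl', hE1, hE1', e', harc'⟩ := h2
  have ho : o' = o := cln_o_eq hc hE1 hE
  subst ho
  have hp := hE.2.2.2.2.1
  have h5 := AA.len_le hE' hl0 e harc' hp
  have h6 := AA.len_le hE1' hl0' e' harc hp
  rw [e, e', le_antisymm h6 h5]

theorem cln_oend (hc : Cln T z v) (h4 : (T z).ncard = 4) (hv : dist v z = 1)
    (h3 : (T v).ncard = 3) (h2 : (T z ∩ T v).ncard = 2) : ∃ o, OEnd T z v o := by
  obtain ⟨o, ε, ho, hε, h1, -⟩ := hc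
  exact ⟨o, ho, hv, h4, h3, h2, ε, hε, h1⟩

/-- a positive combination of two unit vectors at an angle less than 60 degrees -/
theorem exists_between {l β γ : ℝ} (hl0 : 0 < l) (hl : l ≤ Real.pi / 3) (hβ : 0 < β)
    (hγ : 0 < γ) : ∃ t ρ : ℝ, 0 < t ∧ t < l ∧ 0 < ρ ∧
      (β : ℂ) + (γ : ℂ) * cis l = (ρ : ℂ) * cis t := by
  have hpi := Real.pi_pos
  set w : ℂ := (β : ℂ) + (γ : ℂ) * cis l with hw
  have him : w.im = γ * Real.sin l := by
    rw [hw, Complex.add_im, Complex.ofReal_im, zero_add, Complex.im_ofReal_mul, cis,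
      Complex.exp_ofReal_mul_I_im]
  have hre : w.re = β + γ * Real.cos l := by
    rw [hw, Complex.add_re, Complex.ofReal_re, Complex.re_ofReal_mul, cis,
      Complex.exp_ofReal_mul_I_re]
  have hsl : 0 < Real.sin l := Real.sin_pos_of_pos_of_lt_pi hl0 (by linarith)
  have him0 : 0 < w.im := by rw [him]; positivity
  have hw0 : w ≠ 0 := by
    intro h0; rw [h0] at him0; simp at him0
  have hρ : 0 < ‖w‖ := norm_pos_iff.2 hw0
  have hrep : w = (‖w‖ : ℂ) * cis (Complex.arg w) := by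
    rw [cis]; exact (Complex.norm_mul_exp_arg_mul_I w).symm
  have ht0 : 0 < Complex.arg w := by
    rcases lt_trichotomy 0 (Complex.arg w) with h1 | h1 | h1
    · exact h1
    · exfalso
      rw [← h1] at hrep
      have h2 := congrArg Complex.im hrep
      rw [Complex.im_ofReal_mul, cis, Complex.exp_ofReal_mul_I_im, Real.sin_zero, mul_zero] at h2
      linarith
    · exact absurd him0 (not_lt.2 (Complex.arg_neg_iff.1 h1).le)
  have htπ := Complex.arg_le_pi w
  have htl : Complex.arg w < l := by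
    have h1 : ‖w‖ * Real.sin (Complex.arg w - l) = -(β * Real.sin l) := by
      have h2 : ‖w‖ * Real.sin (Complex.arg w) = w.im := by
        have := congrArg Complex.im hrep
        rw [Complex.im_ofReal_mul, cis, Complex.exp_ofReal_mul_I_im] at this
        exact this.symm
      have h3 : ‖w‖ * Real.cos (Complex.arg w) = w.re := by
        have := congrArg Complex.re hrep
        rw [Complex.re_ofReal_mul, cis, Complex.exp_ofReal_mul_I_re] at this
        exact this.symm
      rw [Real.sin_sub]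
      have : ‖w‖ * (Real.sin (Complex.arg w) * Real.cos l - Real.cos (Complex.arg w) * Real.sin l)
          = (‖w‖ * Real.sin (Complex.arg w)) * Real.cos l -
            (‖w‖ * Real.cos (Complex.arg w)) * Real.sin l := by ring
      rw [this, h2, h3, him, hre]; ring
    by_contra hcon
    push Not at hcon
    have h2 : 0 ≤ Real.sin (Complex.arg w - l) :=
      Real.sin_nonneg_of_nonneg_of_le_pi (by linarith) (by linarith)
    have h3 : 0 ≤ ‖w‖ * Real.sin (Complex.arg w - l) := by positivity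
    have h5 : 0 < β * Real.sin l := by positivity
    linarith
  exact ⟨Complex.arg w, ‖w‖, ht0, htl, hρ, hrep⟩

/-- **the two `cdf`-points are not the ends of one arc** -/
theorem not_aa (h : Irr U T) (hv : dist v z = 1) (h3v : (T v).ncard ≤ 3)
    (hcov : T z ⊆ T v ∪ (T z ∩ T q)) (hP : (T z ∩ T q).ncard = 2)
    {α β γ : ℝ} (hα : 0 < α) (hβ : 0 < β) (hγ : 0 < γ)
    (hL : (α : ℂ) * (v - z) + (β : ℂ) * (q - z) + (γ : ℂ) * (q' - z) = 0) :
    ¬ AA T z q q' := by
  rintro ⟨o, l, hl0, hl, hE, hE', e, harc⟩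
  -- the point of the arc opposite to `v`
  have hmain : ∃ t ∈ Ioo 0 l, 2 * z - v = z + (q - z) * cis (-(o * t)) := by
    obtain ⟨t, ρ, ht0, htl, hρ, hrep⟩ := exists_between hl0 hl hβ hγ
    have hn : ‖v - z‖ = 1 := by rw [← dist_eq_norm]; exact hv
    have hnq : ‖q - z‖ = 1 := by rw [← dist_eq_norm]; exact hE.2.1
    -- the same with the orientation
    have hrep' : (β : ℂ) + (γ : ℂ) * cis (-(o * l)) = (ρ : ℂ) * cis (-(o * t)) := by
      rcases hE.1 with rfl | rfl
      · have h5 := congrArg (starRingEnd ℂ) hrep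
        rw [map_add, map_mul, map_mul, Complex.conj_ofReal, Complex.conj_ofReal,
          Complex.conj_ofReal] at h5
        have hcj : ∀ s : ℝ, (starRingEnd ℂ) (cis s) = cis (-(1 * s)) := by
          intro s
          rw [cis, cis, ← Complex.exp_conj, map_mul, Complex.conj_ofReal, Complex.conj_I]
          congr 1; push_cast; ring
        rwa [hcj, hcj] at h5
      · rw [neg_one_mul, neg_neg, neg_one_mul, neg_neg]; exact hrep
    have h6 : (α : ℂ) * (v - z) = -((ρ : ℂ) * ((q - z) * cis (-(o * t)))) := by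
      rw [e, add_sub_cancel_left] at hL
      linear_combination hL - (q - z) * hrep'
    have h7 : α = ρ := by
      have h8 := congrArg (fun x : ℂ => ‖x‖) h6
      simp only [norm_mul, norm_neg, Complex.norm_real, Real.norm_eq_abs, hn, hnq, norm_cis,
        mul_one] at h8
      rw [abs_of_pos hα, abs_of_pos hρ] at h8
      exact h8
    refine ⟨t, ⟨ht0, htl⟩, ?_⟩
    have hα0 : (α : ℂ) ≠ 0 := by exact_mod_cast hα.ne'
    rw [← h7] at h6
    have h9 : v - z = -((q - z) * cis (-(o * t))) := by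
      apply mul_left_cancel₀ hα0
      rw [h6]; ring
    linear_combination -h9
  obtain ⟨t, ht, h2⟩ := hmain
  refine Vale.Agent.P032.S5.H767.anti h hv h3v (P := T z ∩ T q) hcov (subset_closure ?_)
  rw [h2]
  exact mem_ex h hP inter_subset_left (dist_rot hE.2.1 _) (harc t ht)

/-- the data of one centre -/
theorem ncard_T (hz : DPt T z a b c d) : (T z).ncard = 4 := by
  rw [hz.pal, Set.ncard_eq_toFinset_card']
  have h1 := hz.ab; have h2 := hz.ac; have h5 := hz.ad; have h6 := hz.bc; have h7 := hz.bd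
  have h8 := hz.cd
  simp [h1, h2, h5, h6, h7, h8]

theorem compl_abe (C : Ctr U T z a b c d e f) : ({a, b, e} : Set (Fin 6))ᶜ = {c, d, f} := by
  obtain ⟨⟨ab, ac, ad, ae, af⟩, ⟨bc, bd, be, bf⟩, ⟨cd, ce, cf⟩, ⟨de, df⟩, ef⟩ := nd_ne C.nd
  ext i
  simp only [mem_compl_iff, mem_insert_iff, mem_singleton_iff, not_or]
  constructor
  · rintro ⟨h1, h2, h3⟩
    rcases C.all i with h | h | h | h | h | h
    exacts [absurd h h1, absurd h h2, Or.inl h, Or.inr (Or.inl h), absurd h h3,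
      Or.inr (Or.inr h)]
  · rintro (rfl | rfl | rfl)
    exacts [⟨ac.symm, bc.symm, ce⟩, ⟨ad.symm, bd.symm, de⟩, ⟨af.symm, bf.symm, ef.symm⟩]

theorem inter_abe (C : Ctr U T z a b c d e f) : T z ∩ {a, b, e} = {a, b} := by
  obtain ⟨⟨ab, ac, ad, ae, af⟩, ⟨bc, bd, be, bf⟩, ⟨cd, ce, cf⟩, ⟨de, df⟩, ef⟩ := nd_ne C.nd
  rw [C.pal]
  ext i
  simp only [mem_inter_iff, mem_insert_iff, mem_singleton_iff]
  constructor
  · rintro ⟨h1, h2 | h2 | h2⟩
    · exact Or.inl h2
    · exact Or.inr h2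
    · subst h2
      rcases h1 with h1 | h1 | h1 | h1
      exacts [absurd h1 ae.symm, absurd h1 be.symm, absurd h1 ce.symm, absurd h1 de.symm]
  · rintro (h1 | h1)
    exacts [⟨Or.inl h1, Or.inl h1⟩, ⟨Or.inr (Or.inl h1), Or.inr (Or.inl h1)⟩]

/-- the palette of an end with the pair `ab` -/
theorem third_type (C : Ctr U T z a b c d e f) {w : ℂ} (h3 : (T w).ncard = 3)
    (hp : T z ∩ T w = {a, b}) : T w = {a, b, e} ∨ T w = {a, b, f} := by
  obtain ⟨⟨ab, ac, ad, ae, af⟩, ⟨bc, bd, be, bf⟩, ⟨cd, ce, cf⟩, ⟨de, df⟩, ef⟩ := nd_ne C.nd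
  have h1 : ({a, b} : Set (Fin 6)) ⊆ T w := by rw [← hp]; exact inter_subset_right
  obtain ⟨g, hg, hgn⟩ : ∃ g ∈ T w, g ∉ ({a, b} : Set (Fin 6)) := by
    by_contra hcon
    push Not at hcon
    have h2 : T w ⊆ {a, b} := hcon
    have h4 := Set.ncard_le_ncard h2 (Set.toFinite _)
    rw [h3, Set.ncard_pair ab] at h4
    omega
  have hgz : g ∉ T z := fun h2 => hgn (by rw [← hp]; exact ⟨h2, hg⟩)
  have key : ∀ {x : Fin 6}, g = x → a ≠ x → b ≠ x → T w = {a, b, x} := by
    rintro x rfl hax hbx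
    symm
    refine Set.eq_of_subset_of_ncard_le ?_ ?_ (Set.toFinite _)
    · rintro i (rfl | rfl | rfl)
      exacts [h1 (by simp), h1 (by simp), hg]
    · rw [h3, Set.ncard_eq_three.2 ⟨a, b, g, ab, hax, hbx, rfl⟩]
  rcases C.miss hgz with h2 | h2
  · exact Or.inl (key h2 ae be)
  · exact Or.inr (key h2 af bf)

/-- **(1,2)-networks of clean circles**: one exact `ab`-arc, two exact `cd`-arcs -/
theorem w3 (h : Irr U T) (hz : DPt T z a b c d) (nd : [a, b, c, d, e, f].Nodup)
    (h3 : ∀ y, dist y z = 1 → (T y).ncard ≤ 3) (hv : dist v z = 1) (Tv : T v = {a, b, e})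
    (hq : dist q z = 1) (Tq : T q = {c, d, f}) (hop : v + q ≠ 2 * z) (hq' : dist q' z = 1)
    (Tq' : T q' = {c, d, f}) (hne : q ≠ q')
    (huv : ∀ v', dist v' z = 1 → T v' = {a, b, e} → v' = v) :
    ∃ u r r', T u = {a, b, f} ∧ T r = {c, d, e} ∧ T r' = {c, d, e} ∧ r ≠ r' ∧
      AA T z v u ∧ AA T z q r ∧ AA T z q' r' ∧
      (∀ y, dist y z = 1 → T y = {a, b, f} → y = u) ∧
      (∀ y, dist y z = 1 → T y = {c, d, e} → y = r ∨ y = r') ∧
      (∀ y, dist y z = 1 → T y = {c, d, f} → y = q ∨ y = q') ∧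
      (∀ y ∈ Ex T z {a, b}, Seg T z v u y) ∧
      ∀ y ∈ Ex T z {c, d}, Seg T z q r y ∨ Seg T z q' r' y := by
  obtain ⟨⟨ab, ac, ad, ae, af⟩, ⟨bc, bd, be, bf⟩, ⟨cd, ce, cf⟩, ⟨de, df⟩, ef⟩ := nd_ne nd
  have C := ctr_of_dpt h hz nd
  have hz4 := ncard_T hz
  have he : e ∉ T z := by
    rw [hz.pal]
    simp only [mem_insert_iff, mem_singleton_iff, not_or]
    exact ⟨ae.symm, be.symm, ce.symm, de.symm⟩
  have hf : f ∉ T z := by
    rw [hz.pal]
    simp only [mem_insert_iff, mem_singleton_iff, not_or]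
    exact ⟨af.symm, bf.symm, cf.symm, df.symm⟩
  have cX : ({a, b, e} : Set (Fin 6))ᶜ = {c, d, f} := compl_abe C
  have cY : ({a, b, f} : Set (Fin 6))ᶜ = {c, d, e} := compl_abe C.swapEF
  have nX : ({a, b, e} : Set (Fin 6)).ncard = 3 := Set.ncard_eq_three.2 ⟨a, b, e, ab, ae, be, rfl⟩
  have nY : ({a, b, f} : Set (Fin 6)).ncard = 3 := Set.ncard_eq_three.2 ⟨a, b, f, ab, af, bf, rfl⟩
  have heX : e ∈ ({a, b, e} : Set (Fin 6)) := by simp
  have hfX : f ∈ ({a, b, e} : Set (Fin 6))ᶜ := by rw [cX]; simp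
  have hfY : f ∈ ({a, b, f} : Set (Fin 6)) := by simp
  have heY : e ∈ ({a, b, f} : Set (Fin 6))ᶜ := by rw [cY]; simp
  have heX' : e ∈ ({a, b, e} : Set (Fin 6))ᶜᶜ := by rw [compl_compl]; exact heX
  have hfY' : f ∈ ({a, b, f} : Set (Fin 6))ᶜᶜ := by rw [compl_compl]; exact hfY
  have iX : T z ∩ {a, b, e} = {a, b} := inter_abe C
  have iY : T z ∩ {a, b, f} = {a, b} := inter_abe C.swapEF
  have iXc : T z ∩ {c, d, f} = {c, d} := inter_abe C.swapAC.swapEF
  have iYc : T z ∩ {c, d, e} = {c, d} := inter_abe C.swapAC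
  have dX : T z \ {a, b, e} = {c, d} := by rw [← iXc, ← cX]; rfl
  have dY : T z \ {a, b, f} = {c, d} := by rw [← iYc, ← cY]; rfl
  have dXc : T z \ {c, d, f} = {a, b} := by
    rw [← iX, ← cX, Set.sdiff_compl]
  have dYc : T z \ {c, d, e} = {a, b} := by
    rw [← iY, ← cY, Set.sdiff_compl]
  have nab : ({a, b} : Set (Fin 6)).ncard = 2 := Set.ncard_pair ab
  have ncd : ({c, d} : Set (Fin 6)).ncard = 2 := Set.ncard_pair cd
  -- the first network
  have N : Nd T {a, b, e} z v q :=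
    ⟨nX, by rw [dist_comm]; exact hv, by rw [dist_comm]; exact hq, Tv, by rw [Tq, cX], hop⟩
  have N' : Nd T {a, b, e} z v q' := N.node_y h heX he hq' (by rw [Tq', cX])
  have clX : ∀ m, dist m z = 1 → T m = {a, b, e} → Cln T z m := fun m hm Tm =>
    N.cln471 h hfX hf (N.node_x h hfX hf hm Tm) heX he
  have clXc : ∀ m, dist m z = 1 → T m = {c, d, f} → Cln T z m := fun m hm Tm =>
    N.swap.cln471 h heX' he (N.node_y h heX he hm (by rw [Tm, cX])).swap hfX hf
  have atq : ∀ y, dist y z = 1 → T y = {c, d, f} → y = q ∨ y = q' := fun y hy Ty =>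
    N.ends_z h N' hne heX he hfX hf hy (by rw [Ty, cX])
  -- ends
  have eeX : ∀ m, dist m z = 1 → T m = {a, b, e} → EE T z m := fun m hm Tm =>
    ⟨cln_oend (clX m hm Tm) hz4 hm (by rw [Tm, nX]) (by rw [Tm, iX, nab]),
      by rw [Tm, dX]; exact hz.arc2⟩
  have eeXc : ∀ m, dist m z = 1 → T m = {c, d, f} → EE T z m := fun m hm Tm =>
    ⟨cln_oend (clXc m hm Tm) hz4 hm (by rw [Tm, ← cX]; exact ncard_compl_three' nX)
      (by rw [Tm, iXc, ncd]), by rw [Tm, dXc]; exact hz.arc1⟩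
  have hvE := eeX v hv Tv
  have hqE := eeXc q hq Tq
  have hqE' := eeXc q' hq' Tq'
  have cvq : T q = (T v)ᶜ := by rw [Tq, Tv, cX]
  have cvq' : T q' = (T v)ᶜ := by rw [Tq', Tv, cX]
  have cqv : T v = (T q)ᶜ := by rw [cvq, compl_compl]
  have cqv' : T v = (T q')ᶜ := by rw [cvq', compl_compl]
  obtain ⟨u, hu⟩ := hvE.arc_ex h h3 hqE cvq
  obtain ⟨r, hr⟩ := hqE.arc_ex h h3 hvE cqv
  obtain ⟨r', hr'⟩ := hqE'.arc_ex h h3 hvE cqv'
  have huE := hu.end_ hvE
  have hrE := hr.end_ hqE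
  have hrE' := hr'.end_ hqE'
  -- the other network
  have Tu : T u = {a, b, f} := by
    rcases third_type C huE.card_v (by rw [hu.pair', Tv, iX]) with h5 | h5
    · exact absurd (huv u huE.dist h5) hu.ne
    · exact h5
  -- `q, q'` are not the ends of one arc
  obtain ⟨α, β, γ, hα, hβ, hγ, hL⟩ := L3_of (X := {a, b, e}) h nX h3
    (fun y hy hcon hsub => by
      rw [cX, iX, iXc]; exact C.pairs y hy hcon hsub)
    (fun m hm hTm => by
      rcases hTm with h5 | h5
      · exact clX m hm h5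
      · exact clXc m hm (by rw [h5, cX]))
    (by have := hvE.en813; rwa [Tv] at this)
    (by have := hqE.en813; rwa [Tq, ← cX] at this)
    (by have := hqE'.en813; rwa [Tq', ← cX] at this) hne
    (fun v' h5 => huv v' h5.2.2.2.1 h5.1)
    (fun p h5 => atq p h5.2.2.2.1 (by rw [h5.1, cX]))
  have hcov : ∀ {p : ℂ}, T p = {c, d, f} → T z ⊆ T v ∪ (T z ∩ T p) := by
    intro p Tp
    rw [Tp, iXc, Tv, hz.pal]
    intro i hi
    simp only [mem_insert_iff, mem_singleton_iff, mem_union] at hi ⊢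
    tauto
  have nAA : ¬ AA T z q q' := not_aa h hv (by rw [Tv, nX]) (hcov Tq) (by rw [Tq, iXc, ncd])
    hα hβ hγ hL
  have nAA' : ¬ AA T z q' q := fun h5 => nAA h5.symm
  have Tr : T r = {c, d, e} := by
    rcases third_type C.swapAC hrE.card_v (by rw [hr.pair', Tq, iXc]) with h5 | h5
    · exact h5
    · rcases atq r hrE.dist h5 with h6 | h6
      · exact absurd h6 hr.ne
      · exact absurd (h6 ▸ hr) nAA
  have Tr' : T r' = {c, d, e} := by
    rcases third_type C.swapAC hrE'.card_v (by rw [hr'.pair', Tq', iXc]) with h5 | h5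
    · exact h5
    · rcases atq r' hrE'.dist h5 with h6 | h6
      · exact absurd (h6 ▸ hr') nAA'
      · exact absurd h6 hr'.ne
  have cur : T r = (T u)ᶜ := by rw [Tr, Tu, cY]
  have cur' : T r' = (T u)ᶜ := by rw [Tr', Tu, cY]
  have M : Nd T {a, b, f} z u r :=
    ⟨nY, by rw [dist_comm]; exact huE.dist, by rw [dist_comm]; exact hrE.dist, Tu,
      by rw [Tr, cY], huE.anti813 h hrE cur⟩
  have M' : Nd T {a, b, f} z u r' :=
    ⟨nY, by rw [dist_comm]; exact huE.dist, by rw [dist_comm]; exact hrE'.dist, Tu,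
      by rw [Tr', cY], huE.anti813 h hrE' cur'⟩
  have clY : ∀ m, dist m z = 1 → T m = {a, b, f} → Cln T z m := fun m hm Tm =>
    M.cln471 h heY he (M.node_x h heY he hm Tm) hfY hf
  have clYc : ∀ m, dist m z = 1 → T m = {c, d, e} → Cln T z m := fun m hm Tm =>
    M.swap.cln471 h hfY' hf (M.node_y h hfY hf hm (by rw [Tm, cY])).swap heY he
  have hrr : r ≠ r' := by
    intro h5
    exact hne (cln_aa_unique (clYc r hrE.dist Tr) hr.symm (h5 ▸ hr'.symm))
  have atr : ∀ y, dist y z = 1 → T y = {c, d, e} → y = r ∨ y = r' := fun y hy Ty =>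
    M.ends_z h M' hrr hfY hf heY he hy (by rw [Ty, cY])
  have eeY : ∀ m, dist m z = 1 → T m = {a, b, f} → EE T z m := fun m hm Tm =>
    ⟨cln_oend (clY m hm Tm) hz4 hm (by rw [Tm, nY]) (by rw [Tm, iY, nab]),
      by rw [Tm, dY]; exact hz.arc2⟩
  have hne_ef : ∀ {x y : ℂ}, T x = {a, b, e} → T y = {a, b, f} → x ≠ y := by
    rintro x y h5 h6 rfl
    have h7 : e ∈ T x := by rw [h5]; simp
    rw [h6] at h7
    rcases h7 with h7 | h7 | h7
    exacts [ae h7.symm, be h7.symm, ef h7]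
  have atu : ∀ y, dist y z = 1 → T y = {a, b, f} → y = u := by
    intro y hy Ty
    by_contra hyu
    have hyE := eeY y hy Ty
    obtain ⟨y', hy'⟩ := hyE.arc_ex h h3 hrE (by rw [Tr, Ty, cY])
    have hyE' := hy'.end_ hyE
    rcases third_type C hyE'.card_v (by rw [hy'.pair', Ty, iY]) with h5 | h5
    · have h6 := huv y' hyE'.dist h5
      subst h6
      exact hyu (cln_aa_unique (clX y' hv Tv) hy'.symm hu)
    · have My : Nd T {a, b, f} z y r := M.node_x h heY he hy Ty
      rcases M.swap.ends_z h My.swap (Ne.symm hyu) heY he hfY' hf hyE'.dist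
        (by rw [compl_compl]; exact h5) with h6 | h6
      · subst h6
        exact hne_ef Tv Ty (cln_aa_unique (clY y' huE.dist Tu) hu.symm hy'.symm)
      · exact hy'.ne h6
  refine ⟨u, r, r', Tu, Tr, Tr', hrr, hu, hr, hr', atu, atr, atq, fun y hy => ?_,
    fun y hy => ?_⟩
  · obtain ⟨v₁, u₁, hs, hcap⟩ := exists_seg h hz h3 hy
    have hE : (T v₁).ncard = 3 ∧ dist v₁ z = 1 := by
      obtain ⟨o, l, t, -, -, -, h5, -⟩ := hs
      exact ⟨h5.2.2.2.1, h5.2.1⟩
    rcases third_type C hE.1 hcap with h5 | h5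
    · have h6 := huv v₁ hE.2 h5
      subst h6
      have h7 := cln_aa_unique (clX _ hv Tv) hs.aa hu
      rw [← h7]; exact hs
    · have h6 := atu v₁ hE.2 h5
      subst h6
      have h7 := cln_aa_unique (clY _ huE.dist Tu) hs.aa hu.symm
      rw [← h7]; exact hs.symm
  · obtain ⟨v₁, u₁, hs, hcap⟩ := exists_seg h hz.swap h3 hy
    have hE : (T v₁).ncard = 3 ∧ dist v₁ z = 1 := by
      obtain ⟨o, l, t, -, -, -, h5, -⟩ := hs
      exact ⟨h5.2.2.2.1, h5.2.1⟩
    rcases third_type C.swapAC hE.1 hcap with h5 | h5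
    · rcases atr v₁ hE.2 h5 with h6 | h6
      · subst h6
        have h7 := cln_aa_unique (clYc _ hrE.dist Tr) hs.aa hr.symm
        left; rw [← h7]; exact hs.symm
      · subst h6
        have h7 := cln_aa_unique (clYc _ hrE'.dist Tr') hs.aa hr'.symm
        right; rw [← h7]; exact hs.symm
    · rcases atq v₁ hE.2 h5 with h6 | h6
      · subst h6
        have h7 := cln_aa_unique (clXc _ hq Tq) hs.aa hr
        left; rw [← h7]; exact hs
      · subst h6
        have h7 := cln_aa_unique (clXc _ hq' Tq') hs.aa hr'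
        right; rw [← h7]; exact hs

end Vale.Agent.P032.H597
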